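import Mathlib

/-!
Localisation of minimal fragments for a multi-level selector process.
-/

namespace Vale.Agent.P034

open Finset

variable {X : Type} [Fintype X] [DecidableEq X] {n : ℕ}

/-- upper subsets of `H` for the weight `μ` -/
def IsUp (μ : X → ℝ) (H A : Finset X) : Prop :=
  A ⊆ H ∧ ∀ y ∈ A, ∀ y' ∈ H, μ y ≤ μ y' → y' ∈ A

omit [Fintype X] [DecidableEq X] in
theorem layer (f : X → ℝ) (H : Finset X) : ∀ μ : X → ℝ, (∀ x ∈ H, 0 ≤ μ x) →
    (∀ A, IsUp μ H A → 0 ≤ ∑ y ∈ A, f y) → 0 ≤ ∑ y ∈ H, μ y * f y := by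
  induction H using Finset.strongInduction with
  | H H ih =>
    intro μ h0 hA
    rcases H.eq_empty_or_nonempty with rfl | hne
    · simp
    obtain ⟨x, hx, hmin⟩ := exists_min_image H μ hne
    have h1 := hA H ⟨Subset.rfl, fun _ _ _ h _ => h⟩
    have h2 := ih (H.filter fun y => μ x < μ y)
      (filter_ssubset.2 ⟨x, hx, lt_irrefl _⟩) (fun y => μ y - μ x)
      (fun y hy => sub_nonneg.2 (mem_filter.1 hy).2.le)
      (fun A h => hA A ⟨h.1.trans (filter_subset _ _), fun y hy y' hy' e =>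
        h.2 y hy y' (mem_filter.2 ⟨hy', (mem_filter.1 (h.1 hy)).2.trans_le e⟩)
          (sub_le_sub_right e _)⟩)
    rw [sum_filter_of_ne (fun y hy h => lt_of_le_of_ne (hmin y hy) fun e => h (by simp [e]))] at h2
    have h3 : ∑ y ∈ H, μ y * f y = μ x * ∑ y ∈ H, f y + ∑ y ∈ H, (μ y - μ x) * f y := by
      rw [mul_sum, ← sum_add_distrib]
      exact sum_congr rfl fun y _ => by ring
    rw [h3]
    exact add_nonneg (mul_nonneg (h0 x hx) h1) h2

/-- the slack condition -/
def Cond (μ : X → ℝ) (j : X → Fin n) (M : Fin n → ℕ) (H : Finset X) : Prop :=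
  ∀ (i : Fin n) (A : Finset X), IsUp μ H A →
    #{y ∈ A | i < j y} = 0 ∨ 2 ^ (i : ℕ) * (#{y ∈ A | i < j y} + M i) ≤ #A

/-- the profile of a set -/
def prof (j : X → Fin n) (T : Finset X) (i : Fin n) : ℕ := #{x ∈ T | j x = i}

/-- the set where two level functions differ -/
def df (j j' : X → Fin n) : Finset X := {x | j' x ≠ j x}

omit [Fintype X] [DecidableEq X] in
theorem cum_prof (j : X → Fin n) (T : Finset X) (i : Fin n) :
    ∑ k ∈ Iic i, prof j T k = #{x ∈ T | j x ≤ i} := by
  unfold prof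
  rw [sum_card_fiberwise_eq_card_filter]
  simp

omit [Fintype X] [DecidableEq X] in
theorem card_rank (μ : X → ℝ) (H : Finset X) (c : ℕ) :
    #{x ∈ H | #{y ∈ H | μ x ≤ μ y} < c} ≤ c := by
  rcases (H.filter fun x => #{y ∈ H | μ x ≤ μ y} < c).eq_empty_or_nonempty with h | h
  · rw [h]; simp
  obtain ⟨x, hx, hmin⟩ := exists_min_image _ μ h
  refine le_trans (card_le_card fun y hy => ?_) (mem_filter.1 hx).2.le
  exact mem_filter.2 ⟨(mem_filter.1 hy).1, hmin y hy⟩

omit [Fintype X] [DecidableEq X] in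
theorem sum_le_of_cond {μ : X → ℝ} {j : X → Fin n} {H : Finset X} (h : Cond μ j 0 H)
    (A : Finset X) (hA : IsUp μ H A) : 0 ≤ ∑ y ∈ A, (2 - (j y : ℝ)) := by
  have h1 : ∀ y, ((j y : ℕ) : ℝ) = ∑ i : Fin n, if i < j y then 1 else 0 := by
    intro y
    rw [sum_boole, filter_gt_eq_Iio, Fin.card_Iio]
  have h2 : ∀ i : Fin n, (∑ y ∈ A, if i < j y then (1 : ℝ) else 0) ≤ #A * (1 / 2) ^ (i : ℕ) := by
    intro i
    rw [sum_boole]
    rcases h i A hA with h | h
    · rw [h, Nat.cast_zero]; positivity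
    · rw [one_div, inv_pow, ← div_eq_mul_inv, le_div_iff₀ (by positivity), mul_comm]
      simp only [Pi.zero_apply, add_zero] at h
      exact_mod_cast h
  rw [sum_sub_distrib, sub_nonneg]
  simp_rw [h1]
  rw [sum_comm]
  refine (sum_le_sum fun i _ => h2 i).trans ?_
  rw [← mul_sum, Fin.sum_univ_eq_sum_range (fun i => (1 / 2 : ℝ) ^ i), sum_const, nsmul_eq_mul]
  exact mul_le_mul_of_nonneg_left (sum_geometric_two_le n) (by positivity)

theorem exists_loc [NeZero n] (F : Set (Finset X)) (μ : Finset X → X → ℝ) :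
    ∃ B : (X → Fin n) → (Fin n → ℕ) → Finset X,
      (∀ j m i, #{x ∈ B j m | j x = i} ≤ 2 ^ (i : ℕ) * ∑ k, m k) ∧
      ∀ j, ∀ H ∈ F, ∃ j' ≤ j, df j j' ⊆ H ∧ df j j' ⊆ B j' (prof j' (df j j')) ∧
        (df j j' = ∅ → ∃ H ∈ F, Cond (μ H) j 0 H) := by
  classical
  let C : (X → Fin n) → (Fin n → ℕ) → Finset X := fun j m =>
    if h : ∃ H ∈ F, Cond (μ H) j (fun i => ∑ k ∈ Iic i, m k) H then h.choose else ∅
  refine ⟨fun j m => {x ∈ C j m | #{y ∈ C j m | μ (C j m) x ≤ μ (C j m) y} <
    2 ^ (j x : ℕ) * ∑ k, m k}, fun j m i => ?_, fun j H hH => ?_⟩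
  · refine le_trans (card_le_card fun x hx => ?_) (card_rank (μ (C j m)) (C j m) _)
    simp only [mem_filter] at hx ⊢
    exact ⟨hx.1.1, hx.2 ▸ hx.1.2⟩
  let P : Finset (X → Fin n) := {j' | j' ≤ j ∧ df j j' ⊆ H ∧
    ∃ H' ∈ F, Cond (μ H') j' (fun i => #{x ∈ df j j' | j' x ≤ i}) H'}
  have hP : P.Nonempty := by
    refine ⟨fun x => if x ∈ H then 0 else j x, mem_filter.2 ⟨mem_univ _, fun x => ?_, fun x hx => ?_,
      H, hH, fun i A hA => Or.inl ?_⟩⟩
    · dsimp only; split_ifs
      · exact Fin.zero_le _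
      · rfl
    · by_contra h
      simp [df, h] at hx
    · rw [card_eq_zero, filter_eq_empty_iff]
      intro y hy
      simp [hA.1 hy]
  obtain ⟨j', hj', hmax⟩ := exists_max_image P (fun j' => ∑ x, (j' x : ℕ)) hP
  obtain ⟨-, hle, hsub, hex⟩ := mem_filter.1 hj'
  have hex' : ∃ H' ∈ F, Cond (μ H') j' (fun i => ∑ k ∈ Iic i, prof j' (df j j') k) H' := by
    simpa only [cum_prof] using hex
  refine ⟨j', hle, hsub, fun x hx => ?_, fun he => ?_⟩
  swap
  · have e : j' = j := by
      funext x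
      by_contra h
      have : x ∈ df j j' := by simp [df, h]
      simp [he] at this
    rw [he, e] at hex
    simpa [Pi.zero_def] using hex
  have hC : C j' (prof j' (df j j')) = hex'.choose := dif_pos hex'
  obtain ⟨hF, hc⟩ := hex'.choose_spec
  rw [← hC] at hF hc
  beta_reduce
  generalize C j' (prof j' (df j j')) = H' at hF hc ⊢
  simp only [cum_prof] at hc
  by_contra hx'
  have hlt : j' x < j x := lt_of_le_of_ne (hle x) (by simpa [df] using hx)
  let i' : Fin n := ⟨j' x + 1, lt_of_le_of_lt (Nat.succ_le_of_lt hlt) (j x).2⟩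
  let j'' := Function.update j' x i'
  have hx1 : j'' x = i' := Function.update_self ..
  have hx2 : ∀ y, y ≠ x → j'' y = j' y := fun y hy => Function.update_of_ne hy ..
  have hdf : df j j'' ⊆ df j j' := by
    intro y hy
    by_cases e : y = x
    · exact e ▸ hx
    · simpa [df, hx2 y e] using hy
  have hmem : j'' ∈ P := by
    refine mem_filter.2 ⟨mem_univ _, fun y => ?_, hdf.trans hsub, H', hF, fun i A hA => ?_⟩
    · by_cases e : y = x
      · rw [e, hx1]; exact hlt
      · rw [hx2 y e]; exact hle y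
    have hM : ({y ∈ df j j'' | j'' y ≤ i} : Finset X) ⊆ {y ∈ df j j' | j' y ≤ i} := by
      intro y hy
      rw [mem_filter] at hy ⊢
      refine ⟨hdf hy.1, ?_⟩
      by_cases e : y = x
      · have := hy.2
        rw [e, hx1] at this
        rw [e]; exact le_trans (Nat.le_succ _) this
      · exact hx2 y e ▸ hy.2
    by_cases hi : i = j' x ∧ x ∈ A
    · obtain ⟨rfl, hxA⟩ := hi
      right
      have e1 : ({y ∈ A | j' x < j'' y} : Finset X) = insert x {y ∈ A | j' x < j' y} := by
        ext y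
        by_cases e : y = x
        · have : j' x < i' := Nat.lt_succ_self _
          simp [e, hxA, hx1, this]
        · simp [e, hx2 y e]
      have e2 : #{y ∈ df j j'' | j'' y ≤ j' x} < #{y ∈ df j j' | j' y ≤ j' x} := by
        refine card_lt_card ⟨hM, fun h => ?_⟩
        have := (mem_filter.1 (h (mem_filter.2 ⟨hx, le_rfl⟩))).2
        rw [hx1] at this
        exact Nat.not_succ_le_self _ this
      rw [e1, card_insert_of_notMem (by simp)]
      beta_reduce
      rcases hc (j' x) A hA with h | h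
      · have e3 : 2 ^ (j' x : ℕ) * ∑ k, prof j' (df j j') k ≤ #A := by
          refine le_trans (not_lt.1 fun h => hx' (mem_filter.2 ⟨hA.1 hxA, h⟩))
            (card_le_card fun y hy => ?_)
          exact hA.2 x hxA y (mem_filter.1 hy).1 (mem_filter.1 hy).2
        have e4 : #{y ∈ df j j' | j' y ≤ j' x} ≤ ∑ k, prof j' (df j j') k := by
          rw [← cum_prof]; exact sum_le_sum_of_subset (subset_univ _)
        exact le_trans (Nat.mul_le_mul_left _ (by omega)) e3
      · beta_reduce at h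
        exact le_trans (Nat.mul_le_mul_left _ (by omega)) h
    · have e1 : ({y ∈ A | i < j'' y} : Finset X) = {y ∈ A | i < j' y} := by
        refine filter_congr fun y hy => ?_
        by_cases e : y = x
        · subst e
          have : (i : ℕ) ≠ j' y := fun h => hi ⟨Fin.ext h, hy⟩
          simp only [hx1, i', Fin.lt_def]
          omega
        · rw [hx2 y e]
      rw [e1]
      exact (hc i A hA).imp id fun h =>
        le_trans (Nat.mul_le_mul_left _ (Nat.add_le_add_left (card_le_card hM) _)) h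
  refine absurd (hmax j'' hmem) (not_le.2 (sum_lt_sum (fun y _ => ?_) ⟨x, mem_univ _, ?_⟩))
  · by_cases e : y = x
    · rw [e, hx1]; exact Nat.le_succ _
    · rw [hx2 y e]
  · rw [hx1]; exact Nat.lt_succ_self _

end Vale.Agent.P034
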