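import Vale.Agent.P034.Loc

/-!
Counting of localised fragments and the comparison of the two thresholds.
-/

namespace Vale.Agent.P034

open Finset

variable {X : Type} [Fintype X] [DecidableEq X] {n : ℕ}

theorem geo_le (n : ℕ) : ∑ i : Fin n, (1 / 2 : ℝ) ^ (i : ℕ) ≤ 2 := by
  rw [Fin.sum_univ_eq_sum_range (fun i => (1 / 2 : ℝ) ^ i)]
  exact sum_geometric_two_le n

omit [Fintype X] [DecidableEq X] in
theorem count1 (j : X → Fin n) (B : Finset X) (m : Fin n → ℕ)
    (hB : ∀ i, #{x ∈ B | j x = i} ≤ 2 ^ (i : ℕ) * ∑ k, m k) :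
    ∑ T ∈ B.powerset with prof j T = m, ∏ x ∈ T, ((1 / 8 : ℝ) ^ (j x : ℕ) / 288) ≤
      ∏ i : Fin n, ((1 / 2 : ℝ) ^ (i : ℕ) / 32) ^ m i := by
  have h1 : ∀ T ∈ B.powerset.filter fun T => prof j T = m,
      ∏ x ∈ T, ((1 / 8 : ℝ) ^ (j x : ℕ) / 288) =
        (∏ x ∈ T, (1 / 4 : ℝ) ^ (j x : ℕ)) * ∏ i : Fin n, ((1 / 2 : ℝ) ^ (i : ℕ) / 288) ^ m i := by
    intro T hT
    rw [← (mem_filter.1 hT).2]
    simp only [prof, ← prod_const]
    rw [prod_fiberwise' T j fun i => (1 / 2 : ℝ) ^ (i : ℕ) / 288, ← prod_mul_distrib]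
    refine prod_congr rfl fun x _ => ?_
    rw [← mul_div_assoc, ← mul_pow]; norm_num
  have h2 : ∑ x ∈ B, (1 / 4 : ℝ) ^ (j x : ℕ) ≤ (∑ k, m k : ℕ) * 2 := by
    rw [← sum_fiberwise' B j fun i => (1 / 4 : ℝ) ^ (i : ℕ)]
    refine le_trans ?_ (mul_le_mul_of_nonneg_left (geo_le n) (by positivity))
    rw [mul_sum]
    refine sum_le_sum fun i _ => ?_
    rw [sum_const, nsmul_eq_mul]
    have : (#{x ∈ B | j x = i} : ℝ) ≤ 2 ^ (i : ℕ) * (∑ k, m k : ℕ) := by exact_mod_cast hB i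
    refine (mul_le_mul_of_nonneg_right this (by positivity)).trans (le_of_eq ?_)
    rw [mul_right_comm, ← mul_pow, mul_comm]; norm_num
  have h3 : ∑ T ∈ B.powerset with prof j T = m, ∏ x ∈ T, (1 / 4 : ℝ) ^ (j x : ℕ) ≤
      ∏ i, 9 ^ m i := by
    refine (sum_le_sum_of_subset_of_nonneg (filter_subset _ _) fun _ _ _ => by positivity).trans ?_
    rw [← prod_one_add, prod_pow_eq_pow_sum]
    refine (Real.prod_one_add_le_exp_sum _ fun _ => by positivity).trans
      ((Real.exp_le_exp.2 h2).trans ?_)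
    rw [Real.exp_nat_mul]
    refine pow_le_pow_left₀ (by positivity) ?_ _
    have := Real.exp_one_lt_three
    have h : Real.exp 2 = Real.exp 1 * Real.exp 1 := by rw [← Real.exp_add]; norm_num
    have := Real.exp_pos 1
    nlinarith
  rw [sum_congr rfl h1, ← sum_mul]
  refine (mul_le_mul_of_nonneg_right h3 (by positivity)).trans (le_of_eq ?_)
  rw [← prod_mul_distrib]
  refine prod_congr rfl fun i _ => ?_
  rw [← mul_pow]; congr 1; ring

theorem geo2 (N : ℕ) {u : ℝ} (h0 : 0 ≤ u) (h : u ≤ 1 / 2) :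
    ∑ k ∈ range N, u ^ k ≤ 1 + 2 * u := by
  have h1 := geom_sum_mul_neg u N
  have h2 : 0 ≤ u ^ N := by positivity
  have h3 : 0 ≤ ∑ k ∈ range N, u ^ k := by positivity
  by_contra h4
  nlinarith

theorem count (j : X → Fin n) (B : (Fin n → ℕ) → Finset X)
    (hB : ∀ m i, #{x ∈ B m | j x = i} ≤ 2 ^ (i : ℕ) * ∑ k, m k) :
    ∑ T : Finset X with T ≠ ∅ ∧ T ⊆ B (prof j T), ∏ x ∈ T, ((1 / 8 : ℝ) ^ (j x : ℕ) / 288) ≤
      1 / 7 := by
  let R := Fintype.piFinset fun _ : Fin n => range (Fintype.card X + 1)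
  have h0 : (0 : Fin n → ℕ) ∈ R := by simp [R]
  rw [← sum_fiberwise_of_maps_to (t := R.erase 0) (g := prof j)]
  · have h1 : ∑ m ∈ R, ∏ i : Fin n, ((1 / 2 : ℝ) ^ (i : ℕ) / 32) ^ m i ≤ 8 / 7 := by
      rw [← prod_univ_sum (fun _ : Fin n => range (Fintype.card X + 1))
        fun i k => ((1 / 2 : ℝ) ^ (i : ℕ) / 32) ^ k]
      have h2 : ∀ i : Fin n, (1 / 2 : ℝ) ^ (i : ℕ) / 32 ≤ 1 / 2 := fun i => by
        have : (1 / 2 : ℝ) ^ (i : ℕ) ≤ 1 := pow_le_one₀ (by norm_num) (by norm_num)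
        linarith
      refine (prod_le_prod (fun _ _ => by positivity)
        fun i _ => geo2 _ (by positivity) (h2 i)).trans ?_
      refine (Real.prod_one_add_le_exp_sum _ fun _ => by positivity).trans ?_
      refine le_trans (Real.exp_le_exp.2 ?_) ((Real.exp_bound_div_one_sub_of_interval
        (x := 1 / 8) (by norm_num) (by norm_num)).trans (by norm_num))
      rw [← mul_sum, ← sum_div]
      have := geo_le n
      linarith
    rw [← add_sum_erase _ _ h0] at h1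
    simp only [Pi.zero_apply, pow_zero, prod_const_one] at h1
    refine le_trans (sum_le_sum fun m _ => le_trans ?_ (count1 j (B m) m (hB m))) (by linarith)
    refine sum_le_sum_of_subset_of_nonneg (fun T hT => ?_) fun _ _ _ => by positivity
    simp only [mem_filter, mem_powerset] at hT ⊢
    exact ⟨hT.2 ▸ hT.1.2.2, hT.2⟩
  · intro T hT
    refine mem_erase.2 ⟨fun h => ?_, Fintype.mem_piFinset.2 fun i => ?_⟩
    · obtain ⟨x, hx⟩ := nonempty_iff_ne_empty.2 (mem_filter.1 hT).2.1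
      have := congrFun h (j x)
      simp only [prof, Pi.zero_apply, card_eq_zero, filter_eq_empty_iff] at this
      exact this hx rfl
    · exact mem_range.2 (Nat.lt_succ_of_le (card_le_univ _))

theorem exists_levels {a : ℝ} (ha : 0 < a) : ∃ (J : ℕ) (π : Fin (J + 1) → ℝ), (∀ i, 0 ≤ π i) ∧
    ∑ i, π i = 1 ∧ (∀ i, π i ≤ 8 ^ (i : ℕ) * a) ∧ ∀ i i', i < i' → π i = 8 ^ (i : ℕ) * a := by
  classical
  have hex : ∃ J : ℕ, 1 ≤ ∑ i ∈ range (J + 1), 8 ^ i * a := by
    obtain ⟨J, hJ⟩ := pow_unbounded_of_one_lt (1 / a) (show (1 : ℝ) < 8 by norm_num)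
    refine ⟨J, ?_⟩
    rw [div_lt_iff₀ ha] at hJ
    exact hJ.le.trans (single_le_sum (f := fun i => 8 ^ i * a) (fun _ _ => by positivity)
      (self_mem_range_succ J))
  have h1 := Nat.find_spec hex
  have h2 : ∑ i ∈ range (Nat.find hex), 8 ^ i * a ≤ 1 := by
    rcases h : Nat.find hex with _ | k
    · simp
    · exact (not_le.1 (Nat.find_min hex (by omega : k < Nat.find hex))).le
  generalize Nat.find hex = J at h1 h2
  rw [sum_range_succ] at h1
  refine ⟨J, fun i => if (i : ℕ) < J then 8 ^ (i : ℕ) * a else 1 - ∑ i ∈ range J, 8 ^ i * a,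
    fun i => ?_, ?_, fun i => ?_, fun i i' h => ?_⟩
  · dsimp only; split_ifs
    · positivity
    · linarith
  · rw [Fin.sum_univ_castSucc]
    simp only [Fin.val_castSucc, Fin.is_lt, if_true, Fin.val_last, lt_irrefl, if_false]
    rw [Fin.sum_univ_eq_sum_range (fun i => 8 ^ i * a)]; ring
  · dsimp only; split_ifs with h
    · rfl
    · have : (i : ℕ) = J := by have := i.2; omega
      rw [this]; linarith
  · exact if_pos (by have := i'.2; have : (i : ℕ) < i' := h; omega)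

theorem good_bound (g : Finset X → ℝ) (hg : ∀ S, 0 ≤ g S) (j : X → Fin n) (H : Finset X)
    (hH : 1 ≤ ∑ S ∈ H.powerset, g S)
    (hc : Cond (fun x => ∑ S ∈ H.powerset with x ∈ S, g S) j 0 H) :
    1 ≤ ∑ S, g S * ∏ x ∈ S, (256 * (1 / 16 : ℝ) ^ (j x : ℕ)) := by
  have h1 := layer _ H _ (fun x _ => sum_nonneg fun S _ => hg S) (sum_le_of_cond hc)
  have h2 : ∀ S : Finset X, 1 + Real.log 16 * ∑ x ∈ S, (2 - (j x : ℝ)) ≤
      ∏ x ∈ S, (256 * (1 / 16 : ℝ) ^ (j x : ℕ)) := by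
    intro S
    rw [add_comm]
    refine (Real.add_one_le_exp _).trans (le_of_eq ?_)
    rw [mul_sum, Real.exp_sum]
    refine prod_congr rfl fun x _ => ?_
    rw [← Real.rpow_def_of_pos (by norm_num), Real.rpow_sub (by norm_num), Real.rpow_natCast,
      Real.rpow_two, one_div, inv_pow]
    norm_num [div_eq_mul_inv]
  have h3 : ∑ x ∈ H, (∑ S ∈ H.powerset with x ∈ S, g S) * (2 - (j x : ℝ)) =
      ∑ S ∈ H.powerset, g S * ∑ x ∈ S, (2 - (j x : ℝ)) := by
    simp only [sum_mul, mul_sum]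
    refine sum_comm' fun x S => ?_
    simp only [mem_filter, mem_powerset]
    exact ⟨fun h => ⟨h.2.2, h.2.1⟩, fun h => ⟨h.2 h.1, h.2, h.1⟩⟩
  rw [h3] at h1
  have h4 : 0 ≤ Real.log 16 := Real.log_nonneg (by norm_num)
  calc 1 ≤ ∑ S ∈ H.powerset, g S +
        Real.log 16 * ∑ S ∈ H.powerset, g S * ∑ x ∈ S, (2 - (j x : ℝ)) :=
        le_add_of_le_of_nonneg hH (mul_nonneg h4 h1)
    _ = ∑ S ∈ H.powerset, g S * (1 + Real.log 16 * ∑ x ∈ S, (2 - (j x : ℝ))) := by
        rw [mul_sum, ← sum_add_distrib]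
        exact sum_congr rfl fun S _ => by ring
    _ ≤ ∑ S ∈ H.powerset, g S * ∏ x ∈ S, (256 * (1 / 16 : ℝ) ^ (j x : ℕ)) :=
        sum_le_sum fun S _ => mul_le_mul_of_nonneg_left (h2 S) (hg S)
    _ ≤ _ := sum_le_sum_of_subset_of_nonneg (subset_univ _) fun S _ _ =>
        mul_nonneg (hg S) (by positivity)

open Classical in
theorem bad_bound {p : ℝ} (hp : 0 < p) (π : Fin n → ℝ) (h0 : ∀ i, 0 ≤ π i) (h1 : ∑ i, π i = 1)
    (h2 : ∀ i i', i < i' → π i = 8 ^ (i : ℕ) * (288 * p))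
    (B : (X → Fin n) → (Fin n → ℕ) → Finset X)
    (hB : ∀ j m i, #{x ∈ B j m | j x = i} ≤ 2 ^ (i : ℕ) * ∑ k, m k) :
    ∑ j : X → Fin n, ∑ j' : X → Fin n with
      j' ≤ j ∧ df j j' ≠ ∅ ∧ df j j' ⊆ B j' (prof j' (df j j')),
        (∏ x, π (j x)) * p ^ #(df j j') ≤ 1 / 7 := by
  have hπ : ∀ j : X → Fin n, 0 ≤ ∏ x, π (j x) := fun j => prod_nonneg fun x _ => h0 _
  rw [sum_comm' (t' := univ) (s' := fun j' => {j : X → Fin n |
    j' ≤ j ∧ df j j' ≠ ∅ ∧ df j j' ⊆ B j' (prof j' (df j j'))}) (by simp)]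
  have h3 : ∑ j : X → Fin n, ∏ x, π (j x) = 1 := by
    rw [← Fintype.prod_sum fun (_ : X) i => π i]; simp [h1]
  refine le_trans (sum_le_sum (g := fun j' => (∏ x, π (j' x)) * (1 / 7)) fun j' _ => ?_)
    (by rw [← sum_mul, h3, one_mul])
  refine le_trans ?_ (mul_le_mul_of_nonneg_left (count j' (B j') (hB j')) (hπ j'))
  rw [← sum_fiberwise_of_maps_to (g := fun j => df j j')
    (t := {T : Finset X | T ≠ ∅ ∧ T ⊆ B j' (prof j' T)}) (fun j hj => by
      simp only [mem_filter, mem_univ, true_and] at hj ⊢; exact hj.2), mul_sum]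
  refine sum_le_sum fun T _ => ?_
  have h4 : ∑ j ∈ Fintype.piFinset (fun x => if x ∈ T then univ else {j' x}),
      ∏ x, π (j x) * (if x ∈ T then π (j' x) else 1) = ∏ x, π (j' x) := by
    rw [← prod_univ_sum (fun x => if x ∈ T then univ else {j' x})
      fun x i => π i * (if x ∈ T then π (j' x) else 1)]
    refine prod_congr rfl fun x _ => ?_
    split_ifs
    · rw [← sum_mul, h1, one_mul]
    · simp
  rw [← h4, sum_mul]
  refine le_trans (le_of_eq (sum_congr rfl fun j hj => ?_))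
    (sum_le_sum_of_subset_of_nonneg (fun j hj => ?_) fun j _ _ => ?_)
  · simp only [mem_filter, mem_univ, true_and] at hj
    rw [prod_mul_distrib, prod_ite_mem, univ_inter, mul_assoc, ← prod_mul_distrib, hj.2,
      ← prod_const]
    congr 1
    refine prod_congr rfl fun x hx => ?_
    rw [← hj.2] at hx
    rw [h2 (j' x) (j x) (lt_of_le_of_ne (hj.1.1 x) (by simpa [df] using hx)), one_div, inv_pow]
    field_simp
  · simp only [mem_filter, mem_univ, true_and] at hj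
    refine Fintype.mem_piFinset.2 fun x => ?_
    split_ifs with h
    · exact mem_univ _
    · rw [← hj.2] at h
      simp only [df, mem_filter, mem_univ, true_and, not_not] at h
      simp [h]
  · refine mul_nonneg (prod_nonneg fun x _ => mul_nonneg (h0 _) ?_) (by positivity)
    split_ifs
    · exact h0 _
    · exact zero_le_one

theorem main (F : Set (Finset X)) {p : ℝ} (hp : 0 < p)
    (hF : ∀ G : Finset (Finset X), (∀ H ∈ F, ∃ S ∈ G, S ⊆ H) → 1 / 2 < ∑ S ∈ G, p ^ #S)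
    (g : Finset X → ℝ) (hg : ∀ S, 0 ≤ g S) (hgF : ∀ H ∈ F, 1 ≤ ∑ S ∈ H.powerset, g S) :
    1 / 2 < ∑ S, g S * (147456 * p) ^ #S := by
  classical
  obtain ⟨J, π, h0, h1, h2, h3⟩ := exists_levels (a := 288 * p) (by positivity)
  obtain ⟨B, hB, hB'⟩ := exists_loc (n := J + 1) F
    fun H x => ∑ S ∈ H.powerset with x ∈ S, g S
  have h4 := bad_bound hp π h0 h1 h3 B hB
  have hπ : ∀ j : X → Fin (J + 1), 0 ≤ ∏ x, π (j x) := fun j => prod_nonneg fun x _ => h0 _
  have h5 : ∑ j : X → Fin (J + 1), ∏ x, π (j x) = 1 := by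
    rw [← Fintype.prod_sum fun (_ : X) i => π i]; simp [h1]
  have h6 : ∀ S : Finset X, ∑ j : X → Fin (J + 1),
      (∏ x, π (j x)) * ∏ x ∈ S, (256 * (1 / 16 : ℝ) ^ (j x : ℕ)) ≤ (147456 * p) ^ #S := by
    intro S
    have e : ∀ j : X → Fin (J + 1), (∏ x, π (j x)) * ∏ x ∈ S, (256 * (1 / 16 : ℝ) ^ (j x : ℕ)) =
        ∏ x, (π (j x) * if x ∈ S then 256 * (1 / 16 : ℝ) ^ (j x : ℕ) else 1) := by
      intro j
      symm
      rw [prod_mul_distrib, prod_ite_mem, univ_inter]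
    simp_rw [e]
    rw [← Fintype.prod_sum fun (x : X) (i : Fin (J + 1)) =>
      π i * if x ∈ S then 256 * (1 / 16 : ℝ) ^ (i : ℕ) else 1, ← prod_const, ← univ_inter S,
      ← prod_ite_mem]
    simp only [univ_inter]
    refine prod_le_prod (fun x _ => sum_nonneg fun i _ => mul_nonneg (h0 i) ?_) fun x _ => ?_
    · split_ifs <;> positivity
    · split_ifs
      · refine le_trans (sum_le_sum (g := fun i : Fin (J + 1) => 73728 * p * (1 / 2) ^ (i : ℕ))
          fun i _ => ?_) ?_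
        · refine (mul_le_mul_of_nonneg_right (h2 i) (by positivity)).trans (le_of_eq ?_)
          rw [show (1 / 2 : ℝ) = 8 * (1 / 16) by norm_num, mul_pow]; ring
        · rw [← mul_sum]
          have := geo_le (J + 1)
          nlinarith
      · simp [h1]
  have h7 : ∀ j : X → Fin (J + 1), 1 ≤ ∑ S, g S * ∏ x ∈ S, (256 * (1 / 16 : ℝ) ^ (j x : ℕ)) +
      2 * ∑ j' : X → Fin (J + 1) with
        j' ≤ j ∧ df j j' ≠ ∅ ∧ df j j' ⊆ B j' (prof j' (df j j')), p ^ #(df j j') := by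
    intro j
    by_cases hj : ∃ H ∈ F, Cond (fun x => ∑ S ∈ H.powerset with x ∈ S, g S) j 0 H
    · obtain ⟨H, hH, hc⟩ := hj
      exact le_add_of_le_of_nonneg (good_bound g hg j H (hgF H hH) hc) (by positivity)
    · refine le_add_of_nonneg_of_le
        (sum_nonneg fun S _ => mul_nonneg (hg S) (by positivity)) ?_
      have := (hF (({j' | j' ≤ j ∧ df j j' ≠ ∅ ∧ df j j' ⊆ B j' (prof j' (df j j'))} :
        Finset (X → Fin (J + 1))).image (df j)) fun H hH => by
          obtain ⟨j', a1, a2, a3, a4⟩ := hB' j H hH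
          exact ⟨_, mem_image_of_mem _ (mem_filter.2
            ⟨mem_univ j', a1, fun h => hj (a4 h), a3⟩), a2⟩).trans_le
        (sum_image_le_of_nonneg fun _ _ => by positivity)
      linarith
  have h8 := sum_le_sum fun j (_ : j ∈ univ) => mul_le_mul_of_nonneg_left (h7 j) (hπ j)
  simp only [mul_one, h5, mul_add, sum_add_distrib, mul_left_comm _ (2 : ℝ), ← mul_sum] at h8
  simp only [mul_sum, mul_left_comm _ (g _)] at h8
  rw [sum_comm] at h8
  simp only [← mul_sum] at h8 h4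
  have h9 := sum_le_sum fun S (_ : S ∈ univ) => mul_le_mul_of_nonneg_left (h6 S) (hg S)
  linarith

end Vale.Agent.P034
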